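import Mathlib
import Vale.Agent.H18.PL1

open MeasureTheory Set
open scoped ENNReal Pointwise

namespace Vale.Agent.H18

theorem lintegral_Ioi_exp (F : ℝ → ℝ≥0∞) :
    ∫⁻ y in Ioi (0 : ℝ), F y = ∫⁻ s, ENNReal.ofReal (Real.exp s) * F (Real.exp s) := by
  have h := lintegral_image_eq_lintegral_abs_deriv_mul (s := univ) (f := Real.exp)
    (f' := Real.exp) MeasurableSet.univ
    (fun x _ => (Real.hasDerivAt_exp x).hasDerivWithinAt) (Real.exp_injective.injOn) F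
  rw [Set.image_univ, Real.range_exp] at h
  rw [h]
  simp [abs_of_pos (Real.exp_pos _)]

/-- Multiplicative Prekopa-Leindler on the half line. -/
theorem pl_mul {F G H : ℝ → ℝ} (hF : Measurable F) (hG : Measurable G) (hH : Measurable H)
    (hF0 : ∀ x, 0 ≤ F x) (hG0 : ∀ x, 0 ≤ G x) (hH0 : ∀ x, 0 ≤ H x)
    {M R : ℝ} (hFM : ∀ x, F x ≤ M) (hGM : ∀ x, G x ≤ M)
    (hFR : ∀ x, R < x → F x = 0) (hGR : ∀ x, R < x → G x = 0)
    {t : ℝ} (ht0 : 0 < t) (ht1 : t < 1)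
    (hFGH : ∀ y z, 0 < y → 0 < z → F y ^ (1 - t) * G z ^ t ≤ H (y ^ (1 - t) * z ^ t)) :
    (∫⁻ y in Ioi (0 : ℝ), ENNReal.ofReal (F y)) ^ (1 - t) *
      (∫⁻ y in Ioi (0 : ℝ), ENNReal.ofReal (G y)) ^ t
      ≤ ∫⁻ y in Ioi (0 : ℝ), ENNReal.ofReal (H y) := by
  have h1t : 0 < 1 - t := by linarith
  rw [lintegral_Ioi_exp, lintegral_Ioi_exp, lintegral_Ioi_exp]
  have conv : ∀ (P : ℝ → ℝ) (s : ℝ), ENNReal.ofReal (Real.exp s) * ENNReal.ofReal (P (Real.exp s))
      = ENNReal.ofReal (Real.exp s * P (Real.exp s)) := by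
    intro P s
    rw [ENNReal.ofReal_mul (Real.exp_pos s).le]
  simp only [conv]
  have hM0 : 0 ≤ M := (hF0 0).trans (hFM 0)
  have bdd : ∀ P : ℝ → ℝ, (∀ x, 0 ≤ P x) → (∀ x, P x ≤ M) → (∀ x, R < x → P x = 0) →
      BddAbove (range fun s => Real.exp s * P (Real.exp s)) := by
    intro P hP0 hPM hPR
    refine ⟨|R| * M, ?_⟩
    rintro _ ⟨s, rfl⟩
    simp only
    by_cases hs : R < Real.exp s
    · rw [hPR _ hs, mul_zero]; positivity
    · push Not at hs
      have h1 : Real.exp s ≤ |R| := hs.trans (le_abs_self R)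
      exact mul_le_mul h1 (hPM _) (hP0 _) (abs_nonneg _)
  refine pl1 (f := fun s => Real.exp s * F (Real.exp s)) (g := fun s => Real.exp s * G (Real.exp s))
    (h := fun s => Real.exp s * H (Real.exp s))
    (by fun_prop) (by fun_prop) (by fun_prop)
    (fun x => mul_nonneg (Real.exp_pos x).le (hF0 _))
    (fun x => mul_nonneg (Real.exp_pos x).le (hG0 _))
    (fun x => mul_nonneg (Real.exp_pos x).le (hH0 _))
    (bdd F hF0 hFM hFR) (bdd G hG0 hGM hGR) ht0 ht1 ?_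
  intro x y
  have e1 : Real.exp ((1 - t) * x + t * y) = Real.exp x ^ (1 - t) * Real.exp y ^ t := by
    rw [← Real.exp_mul, ← Real.exp_mul, ← Real.exp_add]
    ring_nf
  simp only [e1]
  rw [Real.mul_rpow (Real.exp_pos x).le (hF0 _), Real.mul_rpow (Real.exp_pos y).le (hG0 _)]
  have k := hFGH (Real.exp x) (Real.exp y) (Real.exp_pos x) (Real.exp_pos y)
  calc Real.exp x ^ (1 - t) * F (Real.exp x) ^ (1 - t) * (Real.exp y ^ t * G (Real.exp y) ^ t)
      = (Real.exp x ^ (1 - t) * Real.exp y ^ t) *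
        (F (Real.exp x) ^ (1 - t) * G (Real.exp y) ^ t) := by ring
    _ ≤ _ := mul_le_mul_of_nonneg_left k (by positivity)

end Vale.Agent.H18
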