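import Mathlib
import Vale.Agent.H18.PLmul

open MeasureTheory Set
open scoped ENNReal Pointwise

namespace Vale.Agent.H18

/-- support function for the dot product -/
noncomputable def hsup {n : ℕ} (K : Set (Fin n → ℝ)) (a : Fin n → ℝ) : ℝ :=
  sSup ((fun x => a ⬝ᵥ x) '' K)

/-- Wulff set of the geometric mean of the support functions -/
def Wf {n : ℕ} (K L : Set (Fin n → ℝ)) (t : ℝ) : Set (Fin n → ℝ) :=
  {x | ∀ a, a ⬝ᵥ x ≤ hsup K a ^ (1 - t) * hsup L a ^ t}

theorem bddAbove_dot {n : ℕ} {K : Set (Fin n → ℝ)} (hK : IsCompact K) (a : Fin n → ℝ) :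
    BddAbove ((fun x => a ⬝ᵥ x) '' K) :=
  (hK.image (by fun_prop)).bddAbove

theorem le_hsup {n : ℕ} {K : Set (Fin n → ℝ)} (hK : IsCompact K) (a : Fin n → ℝ)
    {x : Fin n → ℝ} (hx : x ∈ K) : a ⬝ᵥ x ≤ hsup K a :=
  le_csSup (bddAbove_dot hK a) ⟨x, hx, rfl⟩

theorem hsup_nonneg {n : ℕ} {K : Set (Fin n → ℝ)} (hK : IsCompact K) (hs : ∀ x ∈ K, -x ∈ K)
    (a : Fin n → ℝ) : 0 ≤ hsup K a := by
  rcases K.eq_empty_or_nonempty with rfl | ⟨x, hx⟩
  · simp [hsup]
  · have h1 := le_hsup hK a hx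
    have h2 := le_hsup hK a (hs x hx)
    rw [dotProduct_neg] at h2
    linarith

theorem exists_hsup {n : ℕ} {K : Set (Fin n → ℝ)} (hK : IsCompact K) (hn : K.Nonempty)
    (a : Fin n → ℝ) : ∃ x ∈ K, a ⬝ᵥ x = hsup K a := by
  obtain ⟨x, hx, hx2⟩ := hK.exists_sSup_image_eq hn
    (f := fun x => a ⬝ᵥ x) (by fun_prop : Continuous fun x => a ⬝ᵥ x).continuousOn
  exact ⟨x, hx, hx2.symm⟩

theorem isClosed_Wf {n : ℕ} (K L : Set (Fin n → ℝ)) (t : ℝ) : IsClosed (Wf K L t) := by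
  have : Wf K L t = ⋂ a, {x | a ⬝ᵥ x ≤ hsup K a ^ (1 - t) * hsup L a ^ t} := by
    ext x; simp [Wf]
  rw [this]
  refine isClosed_iInter fun a => ?_
  exact isClosed_le (by fun_prop) (by fun_prop)

theorem holder_two {t : ℝ} (ht0 : 0 < t) (ht1 : t < 1) {A B C D : ℝ}
    (hA : 0 ≤ A) (hB : 0 ≤ B) (hC : 0 ≤ C) (hD : 0 ≤ D) :
    A ^ (1 - t) * B ^ t + C ^ (1 - t) * D ^ t ≤ (A + C) ^ (1 - t) * (B + D) ^ t := by
  have h1t : 0 < 1 - t := by linarith
  rcases (add_nonneg hA hC).eq_or_lt with h | h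
  · have hA' : A = 0 := by linarith
    have hC' : C = 0 := by linarith
    simp [hA', hC', Real.zero_rpow h1t.ne']
  rcases (add_nonneg hB hD).eq_or_lt with h' | h'
  · have hA' : B = 0 := by linarith
    have hC' : D = 0 := by linarith
    simp [hA', hC', Real.zero_rpow ht0.ne']
  have p1 : 0 < (A + C) ^ (1 - t) := Real.rpow_pos_of_pos h _
  have p2 : 0 < (B + D) ^ t := Real.rpow_pos_of_pos h' _
  have k1 := Real.geom_mean_le_arith_mean2_weighted h1t.le ht0.le
    (div_nonneg hA h.le) (div_nonneg hB h'.le) (by ring)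
  have k2 := Real.geom_mean_le_arith_mean2_weighted h1t.le ht0.le
    (div_nonneg hC h.le) (div_nonneg hD h'.le) (by ring)
  rw [Real.div_rpow hA h.le, Real.div_rpow hB h'.le, div_mul_div_comm] at k1
  rw [Real.div_rpow hC h.le, Real.div_rpow hD h'.le, div_mul_div_comm] at k2
  have k3 : (A ^ (1 - t) * B ^ t + C ^ (1 - t) * D ^ t) / ((A + C) ^ (1 - t) * (B + D) ^ t) ≤ 1 := by
    rw [add_div]
    refine (add_le_add k1 k2).trans (le_of_eq ?_)
    field_simp
    ring
  rwa [div_le_one (by positivity)] at k3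

/-- The section of `K` at height `y` in coordinate `i`. -/
def sec {n : ℕ} (K : Set (Fin (n + 1) → ℝ)) (i : Fin (n + 1)) (y : ℝ) : Set (Fin n → ℝ) :=
  {x | i.insertNth y x ∈ K}

theorem dot_insertNth {n : ℕ} (a : Fin (n + 1) → ℝ) (i : Fin (n + 1)) (y : ℝ) (x : Fin n → ℝ) :
    a ⬝ᵥ (i.insertNth y x : Fin (n + 1) → ℝ) = a i * y + (fun j => a (i.succAbove j)) ⬝ᵥ x := by
  simp only [dotProduct]
  rw [Fin.sum_univ_succAbove _ i]
  simp

theorem continuous_insertNth' {n : ℕ} (i : Fin (n + 1)) (y : ℝ) :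
    Continuous fun x : Fin n → ℝ => (i.insertNth y x : Fin (n + 1) → ℝ) := by
  refine continuous_pi fun j => ?_
  refine i.succAboveCases ?_ ?_ j
  · simpa using continuous_const
  · intro k; simpa using continuous_apply k

theorem isClosed_sec {n : ℕ} {K : Set (Fin (n + 1) → ℝ)} (hK : IsClosed K) (i : Fin (n + 1))
    (y : ℝ) : IsClosed (sec K i y) :=
  hK.preimage (continuous_insertNth' i y)

theorem isCompact_sec {n : ℕ} {K : Set (Fin (n + 1) → ℝ)} (hK : IsCompact K) (i : Fin (n + 1))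
    (y : ℝ) : IsCompact (sec K i y) := by
  have h : sec K i y ⊆ (fun x : Fin (n + 1) → ℝ => fun j => x (i.succAbove j)) '' K := by
    intro x hx
    exact ⟨_, hx, by ext j; simp⟩
  exact (hK.image (by fun_prop)).of_isClosed_subset (isClosed_sec hK.isClosed i y) h

theorem insertNth_combo {n : ℕ} (i : Fin (n + 1)) (y z : ℝ) (x w : Fin n → ℝ) (a b : ℝ) :
    (i.insertNth (a * y + b * z) (a • x + b • w) : Fin (n + 1) → ℝ) =
      a • (i.insertNth y x : Fin (n + 1) → ℝ) + b • (i.insertNth z w : Fin (n + 1) → ℝ) := by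
  ext j
  refine i.succAboveCases ?_ ?_ j
  · simp
  · intro k; simp

theorem convex_sec {n : ℕ} {K : Set (Fin (n + 1) → ℝ)} (hK : Convex ℝ K) (i : Fin (n + 1))
    (y : ℝ) : Convex ℝ (sec K i y) := by
  intro x hx w hw a b ha hb hab
  have := hK hx hw ha hb hab
  rw [← insertNth_combo, ← add_mul, hab, one_mul] at this
  exact this

theorem flip_insertNth {n : ℕ} (i : Fin (n + 1)) (y : ℝ) (x : Fin n → ℝ) :
    Function.update (i.insertNth y x : Fin (n + 1) → ℝ) i
      (-((i.insertNth y x : Fin (n + 1) → ℝ) i)) = (i.insertNth (-y) x : Fin (n + 1) → ℝ) := by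
  rw [Fin.update_insertNth]; simp

theorem sec_neg {n : ℕ} {K : Set (Fin (n + 1) → ℝ)} (i : Fin (n + 1))
    (hflip : ∀ x ∈ K, Function.update x i (-x i) ∈ K) (y : ℝ) : sec K i (-y) = sec K i y := by
  have key : ∀ y, sec K i y ⊆ sec K i (-y) := by
    intro y x hx
    have := hflip _ hx
    rw [flip_insertNth] at this
    exact this
  refine Subset.antisymm ?_ (key y)
  have := key (-y)
  rwa [neg_neg] at this

theorem symm_sec {n : ℕ} {K : Set (Fin (n + 1) → ℝ)} (i : Fin (n + 1))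
    (hs : ∀ x ∈ K, -x ∈ K)
    (hflip : ∀ x ∈ K, Function.update x i (-x i) ∈ K) (y : ℝ) : ∀ x ∈ sec K i y, -x ∈ sec K i y := by
  intro x hx
  have h1 := hs _ hx
  have h2 : -(i.insertNth y x : Fin (n + 1) → ℝ) = (i.insertNth (-y) (-x) : Fin (n + 1) → ℝ) := by
    ext j
    refine i.succAboveCases ?_ ?_ j
    · simp
    · intro k; simp
  rw [h2] at h1
  have h3 : -x ∈ sec K i (-y) := h1
  rwa [sec_neg i hflip] at h3

theorem flip_sec {n : ℕ} {K : Set (Fin (n + 1) → ℝ)} (i : Fin (n + 1)) (k : Fin n)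
    (hflip : ∀ x ∈ K, Function.update x (i.succAbove k) (-x (i.succAbove k)) ∈ K) (y : ℝ) :
    ∀ x ∈ sec K i y, Function.update x k (-x k) ∈ sec K i y := by
  intro x hx
  have h1 := hflip _ hx
  change i.insertNth y (Function.update x k (-x k)) ∈ K
  rw [Fin.insertNth_update]
  simpa using h1

/-- The key inclusion: the Wulff set of two sections is contained in a section of the Wulff set. -/
theorem Wf_sec_subset {n : ℕ} {K L : Set (Fin (n + 1) → ℝ)} (hK : IsCompact K) (hL : IsCompact L)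
    (hKs : ∀ x ∈ K, -x ∈ K) (hLs : ∀ x ∈ L, -x ∈ L) (i : Fin (n + 1))
    (hKf : ∀ x ∈ K, Function.update x i (-x i) ∈ K) (hLf : ∀ x ∈ L, Function.update x i (-x i) ∈ L)
    {t : ℝ} (ht0 : 0 < t) (ht1 : t < 1) {y z : ℝ} (hy : 0 < y) (hz : 0 < z)
    (hKn : (sec K i y).Nonempty) (hLn : (sec L i z).Nonempty) :
    Wf (sec K i y) (sec L i z) t ⊆ sec (Wf K L t) i (y ^ (1 - t) * z ^ t) := by
  have h1t : 0 < 1 - t := by linarith
  have aux : ∀ (K : Set (Fin (n + 1) → ℝ)), IsCompact K →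
      (∀ x ∈ K, Function.update x i (-x i) ∈ K) → ∀ y : ℝ, 0 < y → (sec K i y).Nonempty →
      ∀ a : Fin (n + 1) → ℝ, hsup (sec K i y) (fun j => a (i.succAbove j)) + |a i| * y
        ≤ hsup K a := by
    intro K hK hKf y hy hKn a
    obtain ⟨x, hx, hx2⟩ := exists_hsup (isCompact_sec hK i y) hKn (fun j => a (i.succAbove j))
    rw [← hx2]
    have h1 := le_hsup hK a hx
    have h2 : x ∈ sec K i (-y) := by rw [sec_neg i hKf]; exact hx
    have h2' := le_hsup hK a h2
    rw [dot_insertNth] at h1 h2'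
    rcases abs_cases (a i) with ⟨h, _⟩ | ⟨h, _⟩ <;> rw [h] <;> linarith
  intro x hx a
  rw [dot_insertNth]
  have hx1 := hx (fun j => a (i.succAbove j))
  have hA := hsup_nonneg (isCompact_sec hK i y) (symm_sec i hKs hKf y)
    (fun j => a (i.succAbove j))
  have hB := hsup_nonneg (isCompact_sec hL i z) (symm_sec i hLs hLf z)
    (fun j => a (i.succAbove j))
  have k1 := aux K hK hKf y hy hKn a
  have k2 := aux L hL hLf z hz hLn a
  set A := hsup (sec K i y) (fun j => a (i.succAbove j))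
  set B := hsup (sec L i z) (fun j => a (i.succAbove j))
  have hol := holder_two ht0 ht1 hA hB (mul_nonneg (abs_nonneg (a i)) hy.le)
    (mul_nonneg (abs_nonneg (a i)) hz.le)
  have e1 : (|a i| * y) ^ (1 - t) * (|a i| * z) ^ t = |a i| * (y ^ (1 - t) * z ^ t) := by
    rw [Real.mul_rpow (abs_nonneg _) hy.le, Real.mul_rpow (abs_nonneg _) hz.le]
    have : |a i| = |a i| ^ (1 - t) * |a i| ^ t := by
      rcases (abs_nonneg (a i)).eq_or_lt with h | h
      · rw [← h, Real.zero_rpow h1t.ne', zero_mul]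
      · rw [← Real.rpow_add h]; simp
    calc _ = (|a i| ^ (1 - t) * |a i| ^ t) * (y ^ (1 - t) * z ^ t) := by ring
      _ = _ := by rw [← this]
  have e2 : a i * (y ^ (1 - t) * z ^ t) ≤ |a i| * (y ^ (1 - t) * z ^ t) :=
    mul_le_mul_of_nonneg_right (le_abs_self _) (by positivity)
  have e3 : (A + |a i| * y) ^ (1 - t) * (B + |a i| * z) ^ t ≤ hsup K a ^ (1 - t) * hsup L a ^ t := by
    have p1 : 0 ≤ A + |a i| * y := by positivity
    have p2 : 0 ≤ B + |a i| * z := by positivity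
    exact mul_le_mul (Real.rpow_le_rpow p1 k1 h1t.le) (Real.rpow_le_rpow p2 k2 ht0.le)
      (Real.rpow_nonneg p2 _) (Real.rpow_nonneg (p1.trans k1) _)
  linarith

end Vale.Agent.H18
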