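import Mathlib
import Vale.Agent.H18.LogStep

open MeasureTheory Set
open scoped ENNReal Pointwise

namespace Vale.Agent.H18

theorem isCompact_Wf {n : ℕ} (K L : Set (Fin n → ℝ)) (t : ℝ) : IsCompact (Wf K L t) := by
  set g : (Fin n → ℝ) → ℝ := fun a => hsup K a ^ (1 - t) * hsup L a ^ t with hg
  have h : Wf K L t ⊆ Icc (fun j => - g (-Pi.single j 1)) (fun j => g (Pi.single j 1)) := by
    intro x hx
    refine ⟨fun j => ?_, fun j => ?_⟩
    · have := hx (-Pi.single j 1)
      rw [neg_dotProduct, single_dotProduct, one_mul] at this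
      simp only [hg]
      linarith
    · have := hx (Pi.single j 1)
      rw [single_dotProduct, one_mul] at this
      exact this
  exact isCompact_Icc.of_isClosed_subset (isClosed_Wf K L t) h

theorem measurable_volume_sec {n : ℕ} {K : Set (Fin (n + 1) → ℝ)} (hK : MeasurableSet K)
    (i : Fin (n + 1)) : Measurable fun y => volume (sec K i y) := by
  have h1 : MeasurableSet ((MeasurableEquiv.piFinSuccAbove (fun _ => ℝ) i).symm ⁻¹' K) :=
    (MeasurableEquiv.piFinSuccAbove (fun _ => ℝ) i).symm.measurable hK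
  exact measurable_measure_prodMk_left h1

theorem volume_eq_lintegral_sec {n : ℕ} {K : Set (Fin (n + 1) → ℝ)} (hK : MeasurableSet K)
    (i : Fin (n + 1)) : volume K = ∫⁻ y, volume (sec K i y) := by
  have h1 : MeasurableSet ((MeasurableEquiv.piFinSuccAbove (fun _ => ℝ) i).symm ⁻¹' K) :=
    (MeasurableEquiv.piFinSuccAbove (fun _ => ℝ) i).symm.measurable hK
  have h2 := (volume_preserving_piFinSuccAbove (fun _ : Fin (n + 1) => ℝ) i).symm.measure_preimage
    hK.nullMeasurableSet
  rw [← h2, Measure.volume_eq_prod, Measure.prod_apply h1]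
  rfl

theorem lintegral_even {F : ℝ → ℝ≥0∞} (hF : ∀ y, F (-y) = F y) :
    ∫⁻ y, F y = 2 * ∫⁻ y in Ioi (0 : ℝ), F y := by
  have h1 : ∫⁻ y, F y = (∫⁻ y in Ioi (0 : ℝ), F y) + ∫⁻ y in (Ioi (0 : ℝ))ᶜ, F y :=
    (lintegral_add_compl _ measurableSet_Ioi).symm
  have h2 : ∫⁻ y in (Ioi (0 : ℝ))ᶜ, F y = ∫⁻ y in Ioi (0 : ℝ), F y := by
    rw [compl_Ioi]
    have h3 : ∫⁻ y in Iic (0 : ℝ), F y = ∫⁻ y in Iio (0 : ℝ), F y :=
      setLIntegral_congr Iio_ae_eq_Iic.symm
    rw [h3]
    have h4 := (Measure.measurePreserving_neg (volume : Measure ℝ)).setLIntegral_comp_preimage_emb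
      (MeasurableEquiv.neg ℝ).measurableEmbedding F (Iio 0)
    rw [← h4]
    simp [hF]
  rw [h1, h2, two_mul]

/-- The log-Brunn-Minkowski inequality for all symmetric compact convex pairs in `ℝ^n` that are
invariant under the coordinate reflections with index in `S`. -/
def PLB (n : ℕ) (S : Finset (Fin n)) (t : ℝ) : Prop :=
  ∀ K L : Set (Fin n → ℝ), IsCompact K → IsCompact L → Convex ℝ K → Convex ℝ L →
    (∀ x ∈ K, -x ∈ K) → (∀ x ∈ L, -x ∈ L) →
    (∀ i ∈ S, ∀ x ∈ K, Function.update x i (-x i) ∈ K) →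
    (∀ i ∈ S, ∀ x ∈ L, Function.update x i (-x i) ∈ L) →
    volume K ^ (1 - t) * volume L ^ t ≤ volume (Wf K L t)

theorem hsup_flip {n : ℕ} {K : Set (Fin n → ℝ)} (i : Fin n)
    (hflip : ∀ x ∈ K, Function.update x i (-x i) ∈ K) (a : Fin n → ℝ) :
    hsup K (Function.update a i (-a i)) = hsup K a := by
  have dot : ∀ (a x : Fin n → ℝ), Function.update a i (-a i) ⬝ᵥ x =
      a ⬝ᵥ Function.update x i (-x i) := by
    intro a x
    simp only [dotProduct]
    refine Finset.sum_congr rfl fun j _ => ?_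
    by_cases h : j = i
    · subst h; simp
    · simp [h]
  unfold hsup
  congr 1
  ext r
  constructor
  · rintro ⟨x, hx, rfl⟩
    exact ⟨_, hflip x hx, (dot a x).symm⟩
  · rintro ⟨x, hx, rfl⟩
    refine ⟨_, hflip x hx, ?_⟩
    simp only [dot]
    congr 1
    ext j
    by_cases h : j = i
    · subst h; simp
    · simp [h]

theorem Wf_flip {n : ℕ} {K L : Set (Fin n → ℝ)} (i : Fin n) (t : ℝ)
    (hK : ∀ x ∈ K, Function.update x i (-x i) ∈ K)
    (hL : ∀ x ∈ L, Function.update x i (-x i) ∈ L) :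
    ∀ x ∈ Wf K L t, Function.update x i (-x i) ∈ Wf K L t := by
  intro x hx a
  have h := hx (Function.update a i (-a i))
  rw [hsup_flip i hK, hsup_flip i hL] at h
  convert h using 1
  simp only [dotProduct]
  refine Finset.sum_congr rfl fun j _ => ?_
  by_cases h : j = i
  · subst h; simp
  · simp [h]

theorem PLB_step {n : ℕ} (S : Finset (Fin (n + 1))) (i : Fin (n + 1)) (hi : i ∈ S) {t : ℝ}
    (ht0 : 0 < t) (ht1 : t < 1)
    (h : PLB n (Finset.univ.filter fun j => i.succAbove j ∈ S) t) : PLB (n + 1) S t := by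
  intro K L hK hL hKc hLc hKs hLs hKf hLf
  have h1t : 0 < 1 - t := by linarith
  have hWc := isCompact_Wf K L t
  have hKm := hK.measurableSet
  have hLm := hL.measurableSet
  have hWm := hWc.measurableSet
  rw [volume_eq_lintegral_sec hKm i, volume_eq_lintegral_sec hLm i, volume_eq_lintegral_sec hWm i]
  have evK : ∀ y, volume (sec K i (-y)) = volume (sec K i y) := fun y => by
    rw [sec_neg i (hKf i hi)]
  have evL : ∀ y, volume (sec L i (-y)) = volume (sec L i y) := fun y => by
    rw [sec_neg i (hLf i hi)]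
  have evW : ∀ y, volume (sec (Wf K L t) i (-y)) = volume (sec (Wf K L t) i y) := fun y => by
    rw [sec_neg i (Wf_flip i t (hKf i hi) (hLf i hi))]
  rw [lintegral_even evK, lintegral_even evL, lintegral_even evW]
  have finK : ∀ y, volume (sec K i y) ≠ ⊤ := fun y => (isCompact_sec hK i y).measure_lt_top.ne
  have finL : ∀ y, volume (sec L i y) ≠ ⊤ := fun y => (isCompact_sec hL i y).measure_lt_top.ne
  have finW : ∀ y, volume (sec (Wf K L t) i y) ≠ ⊤ :=
    fun y => (isCompact_sec hWc i y).measure_lt_top.ne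
  -- bounds
  have bound : ∀ K : Set (Fin (n + 1) → ℝ), IsCompact K → ∃ M R : ℝ,
      (∀ y, (volume (sec K i y)).toReal ≤ M) ∧ (∀ y, R < y → (volume (sec K i y)).toReal = 0) := by
    intro K hK
    set P := (fun x : Fin (n + 1) → ℝ => fun j => x (i.succAbove j)) '' K
    have hP : IsCompact P := hK.image (by fun_prop)
    obtain ⟨R, hR⟩ := (hK.image (f := fun x : Fin (n + 1) → ℝ => x i) (by fun_prop)).bddAbove
    refine ⟨(volume P).toReal, R, fun y => ?_, fun y hy => ?_⟩
    · refine ENNReal.toReal_mono hP.measure_lt_top.ne (measure_mono ?_)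
      intro x hx
      exact ⟨_, hx, by ext j; simp⟩
    · have : sec K i y = ∅ := by
        ext x
        simp only [mem_empty_iff_false, iff_false]
        intro hx
        have := hR ⟨_, hx, rfl⟩
        simp at this
        linarith
      simp [this]
  obtain ⟨M1, R1, hM1, hR1⟩ := bound K hK
  obtain ⟨M2, R2, hM2, hR2⟩ := bound L hL
  have main := pl_mul (F := fun y => (volume (sec K i y)).toReal)
    (G := fun y => (volume (sec L i y)).toReal)
    (H := fun y => (volume (sec (Wf K L t) i y)).toReal)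
    (measurable_volume_sec hKm i).ennreal_toReal (measurable_volume_sec hLm i).ennreal_toReal
    (measurable_volume_sec hWm i).ennreal_toReal
    (fun _ => ENNReal.toReal_nonneg) (fun _ => ENNReal.toReal_nonneg)
    (fun _ => ENNReal.toReal_nonneg) (M := max M1 M2) (R := max R1 R2)
    (fun y => (hM1 y).trans (le_max_left _ _)) (fun y => (hM2 y).trans (le_max_right _ _))
    (fun y hy => hR1 y (lt_of_le_of_lt (le_max_left _ _) hy))
    (fun y hy => hR2 y (lt_of_le_of_lt (le_max_right _ _) hy)) ht0 ht1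
    (by
      intro y z hy hz
      by_cases hKn : (sec K i y).Nonempty
      · by_cases hLn : (sec L i z).Nonempty
        · have hsub := Wf_sec_subset hK hL hKs hLs i (hKf i hi) (hLf i hi) ht0 ht1 hy hz hKn hLn
          have hind := h (sec K i y) (sec L i z) (isCompact_sec hK i y) (isCompact_sec hL i z)
            (convex_sec hKc i y) (convex_sec hLc i z) (symm_sec i hKs (hKf i hi) y)
            (symm_sec i hLs (hLf i hi) z)
            (fun j hj => flip_sec i j (hKf _ (by simpa using hj)) y)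
            (fun j hj => flip_sec i j (hLf _ (by simpa using hj)) z)
          have h3 := hind.trans (measure_mono hsub)
          have h4 := ENNReal.toReal_mono (finW _) h3
          rw [ENNReal.toReal_mul, ← ENNReal.toReal_rpow, ← ENNReal.toReal_rpow] at h4
          exact h4
        · rw [Set.not_nonempty_iff_eq_empty] at hLn
          simp [hLn, Real.zero_rpow ht0.ne']
      · rw [Set.not_nonempty_iff_eq_empty] at hKn
        simp [hKn, Real.zero_rpow h1t.ne'])
  simp only [ENNReal.ofReal_toReal (finK _), ENNReal.ofReal_toReal (finL _),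
    ENNReal.ofReal_toReal (finW _)] at main
  rw [ENNReal.mul_rpow_of_nonneg _ _ h1t.le, ENNReal.mul_rpow_of_nonneg _ _ ht0.le]
  have e2 : (2 : ℝ≥0∞) ^ (1 - t) * 2 ^ t = 2 := by
    rw [← ENNReal.rpow_add _ _ (by simp) (by simp)]; simp
  calc 2 ^ (1 - t) * (∫⁻ y in Ioi (0 : ℝ), volume (sec K i y)) ^ (1 - t) *
      (2 ^ t * (∫⁻ y in Ioi (0 : ℝ), volume (sec L i y)) ^ t)
      = (2 ^ (1 - t) * 2 ^ t) * ((∫⁻ y in Ioi (0 : ℝ), volume (sec K i y)) ^ (1 - t) *
        (∫⁻ y in Ioi (0 : ℝ), volume (sec L i y)) ^ t) := by ring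
    _ ≤ _ := by rw [e2]; gcongr

end Vale.Agent.H18
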