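import Mathlib
import Vale.Agent.H18.LogStep2

open MeasureTheory Set Filter
open scoped ENNReal Pointwise Topology

namespace Vale.Agent.H18

/-- Fibrewise Brunn-Minkowski in `ℝ × ℝ` for sets with the same projection. -/
theorem sec_bm_prod {X Y Z : Set (ℝ × ℝ)} (hX : MeasurableSet X) (hY : MeasurableSet Y)
    (hZ : MeasurableSet Z)
    {I : Set ℝ} (hXI : ∀ p ∈ X, p.1 ∈ I) (hYI : ∀ p ∈ Y, p.1 ∈ I)
    (hXs : ∀ s ∈ I, ∃ y, (s, y) ∈ X) (hYs : ∀ s ∈ I, ∃ y, (s, y) ∈ Y)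
    {θ : ℝ} (h0 : 0 ≤ θ) (h1 : θ ≤ 1)
    (hXYZ : ∀ s y z, (s, y) ∈ X → (s, z) ∈ Y → (s, (1 - θ) * y + θ * z) ∈ Z) :
    ENNReal.ofReal (1 - θ) * volume X + ENNReal.ofReal θ * volume Y ≤ volume Z := by
  rw [Measure.volume_eq_prod, Measure.prod_apply hX, Measure.prod_apply hY, Measure.prod_apply hZ,
    ← lintegral_const_mul _ (measurable_measure_prodMk_left hX),
    ← lintegral_const_mul _ (measurable_measure_prodMk_left hY),
    ← lintegral_add_left ((measurable_measure_prodMk_left hX).const_mul _)]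
  refine lintegral_mono fun s => ?_
  by_cases hs : s ∈ I
  · refine bm1 (measurable_prodMk_left hX) (measurable_prodMk_left hY) (hXs s hs) (hYs s hs)
      (by linarith) h0 ?_
    intro a ha b hb
    exact hXYZ s a b ha hb
  · have e1 : Prod.mk s ⁻¹' X = ∅ := by
      ext y; simp only [mem_preimage, mem_empty_iff_false, iff_false]
      intro h; exact hs (hXI _ h)
    have e2 : Prod.mk s ⁻¹' Y = ∅ := by
      ext y; simp only [mem_preimage, mem_empty_iff_false, iff_false]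
      intro h; exact hs (hYI _ h)
    simp [e1, e2]

/-- rotation-scaling adapted to `a` -/
noncomputable def rotMap (a : Fin 2 → ℝ) : (Fin 2 → ℝ) →ₗ[ℝ] (Fin 2 → ℝ) :=
  Matrix.toLin' !![a 0, a 1; -a 1, a 0]

theorem rotMap_apply (a x : Fin 2 → ℝ) : rotMap a x = ![a ⬝ᵥ x, -a 1 * x 0 + a 0 * x 1] := by
  ext i
  fin_cases i
  · simp [rotMap, Matrix.toLin'_apply, Matrix.mulVec, dotProduct, Fin.sum_univ_two]
  · simp [rotMap, Matrix.toLin'_apply, Matrix.mulVec, dotProduct, Fin.sum_univ_two]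

theorem det_rotMap (a : Fin 2 → ℝ) : LinearMap.det (rotMap a) = a 0 ^ 2 + a 1 ^ 2 := by
  rw [rotMap, LinearMap.det_toLin', Matrix.det_fin_two_of]
  ring

theorem det_rotMap_pos {a : Fin 2 → ℝ} (ha : a ≠ 0) : 0 < a 0 ^ 2 + a 1 ^ 2 := by
  by_contra h
  push Not at h
  apply ha
  ext i
  fin_cases i
  · simp only [Fin.zero_eta, Pi.zero_apply]; nlinarith [sq_nonneg (a 0), sq_nonneg (a 1)]
  · simp only [Fin.mk_one, Pi.zero_apply]; nlinarith [sq_nonneg (a 0), sq_nonneg (a 1)]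

/-- The image in `ℝ × ℝ`. -/
noncomputable def toProd (a : Fin 2 → ℝ) (X : Set (Fin 2 → ℝ)) : Set (ℝ × ℝ) :=
  (MeasurableEquiv.finTwoArrow (α := ℝ)).symm ⁻¹' (rotMap a '' X)

theorem mem_toProd {a : Fin 2 → ℝ} {X : Set (Fin 2 → ℝ)} {p : ℝ × ℝ} :
    p ∈ toProd a X ↔ ∃ x ∈ X, a ⬝ᵥ x = p.1 ∧ -a 1 * x 0 + a 0 * x 1 = p.2 := by
  unfold toProd
  simp only [mem_preimage, mem_image]
  constructor
  · rintro ⟨x, hx, h⟩
    rw [rotMap_apply] at h
    refine ⟨x, hx, ?_, ?_⟩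
    · have := congrFun h 0
      simpa [MeasurableEquiv.finTwoArrow] using this
    · have := congrFun h 1
      simpa [MeasurableEquiv.finTwoArrow] using this
  · rintro ⟨x, hx, h1, h2⟩
    refine ⟨x, hx, ?_⟩
    rw [rotMap_apply]
    ext i
    fin_cases i
    · simpa [MeasurableEquiv.finTwoArrow] using h1
    · simpa [MeasurableEquiv.finTwoArrow] using h2

theorem volume_toProd (a : Fin 2 → ℝ) (X : Set (Fin 2 → ℝ)) (hX : IsCompact X) :
    volume (toProd a X) = ENNReal.ofReal (a 0 ^ 2 + a 1 ^ 2) * volume X := by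
  unfold toProd
  have hc : IsCompact (rotMap a '' X) := hX.image (LinearMap.continuous_of_finiteDimensional _)
  rw [(volume_preserving_finTwoArrow ℝ).symm.measure_preimage hc.measurableSet.nullMeasurableSet,
    Measure.addHaar_image_linearMap, det_rotMap, abs_of_nonneg (by positivity)]

theorem measurableSet_toProd (a : Fin 2 → ℝ) (X : Set (Fin 2 → ℝ)) (hX : IsCompact X) :
    MeasurableSet (toProd a X) := by
  have hc : IsCompact (rotMap a '' X) := hX.image (LinearMap.continuous_of_finiteDimensional _)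
  exact (MeasurableEquiv.finTwoArrow (α := ℝ)).symm.measurable hc.measurableSet

/-- Sets with the same width in direction `a`: area is concave along Minkowski combinations. -/
theorem sec_bm {X Y : Set (Fin 2 → ℝ)} (hX : IsCompact X) (hY : IsCompact Y)
    (hXc : Convex ℝ X) (hYc : Convex ℝ Y) (hXs : ∀ x ∈ X, -x ∈ X) (hYs : ∀ x ∈ Y, -x ∈ Y)
    {a : Fin 2 → ℝ} (ha : a ≠ 0) {c : ℝ}
    (hXa : ∀ x ∈ X, a ⬝ᵥ x ≤ c) (hYa : ∀ x ∈ Y, a ⬝ᵥ x ≤ c)
    (hXe : ∃ x ∈ X, a ⬝ᵥ x = c) (hYe : ∃ x ∈ Y, a ⬝ᵥ x = c)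
    {θ : ℝ} (h0 : 0 ≤ θ) (h1 : θ ≤ 1) :
    ENNReal.ofReal (1 - θ) * volume X + ENNReal.ofReal θ * volume Y
      ≤ volume ((1 - θ) • X + θ • Y) := by
  have hZ : IsCompact ((1 - θ) • X + θ • Y) := (hX.smul _).add (hY.smul _)
  have sections : ∀ W : Set (Fin 2 → ℝ), Convex ℝ W → (∀ x ∈ W, -x ∈ W) →
      (∃ x ∈ W, a ⬝ᵥ x = c) → ∀ s ∈ Icc (-c) c, ∃ y, (s, y) ∈ toProd a W := by
    rintro W hW hWs ⟨x, hx, hxc⟩ s ⟨hs1, hs2⟩
    have hc : 0 ≤ c := by linarith
    rcases hc.eq_or_lt with hc | hc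
    · have : s = 0 := by rw [← hc] at hs1 hs2; simp only [neg_zero] at hs1; linarith
      refine ⟨_, mem_toProd.2 ⟨x, hx, ?_, rfl⟩⟩
      rw [hxc, this, hc]
    · have hmem := hW hx (hWs x hx) (a := (c + s) / (2 * c)) (b := (c - s) / (2 * c))
        (div_nonneg (by linarith) (by linarith)) (div_nonneg (by linarith) (by linarith))
        (by field_simp; ring)
      refine ⟨_, mem_toProd.2 ⟨_, hmem, ?_, rfl⟩⟩
      rw [dotProduct_add, dotProduct_smul, dotProduct_smul, dotProduct_neg, hxc]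
      simp only [smul_eq_mul]
      field_simp
      ring
  have bounds : ∀ W : Set (Fin 2 → ℝ), (∀ x ∈ W, -x ∈ W) → (∀ x ∈ W, a ⬝ᵥ x ≤ c) →
      ∀ p ∈ toProd a W, p.1 ∈ Icc (-c) c := by
    intro W hWs hWa p hp
    obtain ⟨x, hx, h1, _⟩ := mem_toProd.1 hp
    have h2 := hWa x hx
    have h3 := hWa _ (hWs x hx)
    rw [dotProduct_neg] at h3
    rw [← h1]
    exact ⟨by linarith, h2⟩
  have key := sec_bm_prod (measurableSet_toProd a X hX) (measurableSet_toProd a Y hY)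
    (measurableSet_toProd a _ hZ) (bounds X hXs hXa) (bounds Y hYs hYa)
    (sections X hXc hXs hXe) (sections Y hYc hYs hYe) h0 h1
    (by
      intro s y z hy hz
      obtain ⟨x, hx, hx1, hx2⟩ := mem_toProd.1 hy
      obtain ⟨w, hw, hw1, hw2⟩ := mem_toProd.1 hz
      refine mem_toProd.2 ⟨(1 - θ) • x + θ • w, Set.add_mem_add (smul_mem_smul_set hx)
        (smul_mem_smul_set hw), ?_, ?_⟩
      · rw [dotProduct_add, dotProduct_smul, dotProduct_smul, hx1, hw1]
        simp only [smul_eq_mul]; ring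
      · simp only [Pi.add_apply, Pi.smul_apply, smul_eq_mul] at *
        rw [← hx2, ← hw2]; ring)
  rw [volume_toProd a X hX, volume_toProd a Y hY, volume_toProd a _ hZ] at key
  have hpos := det_rotMap_pos ha
  have hne : ENNReal.ofReal (a 0 ^ 2 + a 1 ^ 2) ≠ 0 := by simp [hpos]
  refine (ENNReal.mul_le_mul_iff_right hne (by simp)).1 ?_
  calc _ = ENNReal.ofReal (1 - θ) * (ENNReal.ofReal (a 0 ^ 2 + a 1 ^ 2) * volume X) +
      ENNReal.ofReal θ * (ENNReal.ofReal (a 0 ^ 2 + a 1 ^ 2) * volume Y) := by ring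
    _ ≤ _ := key

end Vale.Agent.H18
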