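import Mathlib
import Vale.Agent.H18.Planar1

open MeasureTheory Set Filter
open scoped ENNReal Pointwise Topology

namespace Vale.Agent.H18

section poly

variable {m : ℕ} (a : Fin m → Fin 2 → ℝ) (γ : Fin m → ℝ)

/-- normalised linear functional -/
noncomputable def rr (j : Fin m) (x : Fin 2 → ℝ) : ℝ := |a j ⬝ᵥ x| / γ j

/-- the polygon `{r_j ≤ 1}` -/
def QQ : Set (Fin 2 → ℝ) := {x | ∀ j, rr a γ j x ≤ 1}

/-- points whose least maximising index is `j` -/
def arg (j : Fin m) : Set (Fin 2 → ℝ) :=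
  {x | (∀ i, rr a γ i x ≤ rr a γ j x) ∧ ∀ i < j, rr a γ i x < rr a γ j x}

/-- the pieces of the polygon -/
def CC (j : Fin m) : Set (Fin 2 → ℝ) := QQ a γ ∩ arg a γ j

variable {a γ}

theorem rr_continuous (j : Fin m) : Continuous (rr a γ j) := by
  unfold rr; fun_prop

theorem rr_smul (_hγ : ∀ j, 0 < γ j) (j : Fin m) {s : ℝ} (hs : 0 ≤ s) (x : Fin 2 → ℝ) :
    rr a γ j (s • x) = s * rr a γ j x := by
  unfold rr
  rw [dotProduct_smul, smul_eq_mul, abs_mul, abs_of_nonneg hs, mul_div_assoc]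

theorem rr_nonneg (hγ : ∀ j, 0 < γ j) (j : Fin m) (x : Fin 2 → ℝ) : 0 ≤ rr a γ j x :=
  div_nonneg (abs_nonneg _) (hγ j).le

theorem isClosed_QQ : IsClosed (QQ a γ) := by
  have : QQ a γ = ⋂ j, {x | rr a γ j x ≤ 1} := by ext x; simp [QQ]
  rw [this]
  exact isClosed_iInter fun j => isClosed_le (rr_continuous j) continuous_const

theorem measurableSet_arg (j : Fin m) : MeasurableSet (arg a γ j) := by
  have : arg a γ j = (⋂ i, {x | rr a γ i x ≤ rr a γ j x}) ∩
      ⋂ i, ⋂ (_ : i < j), {x | rr a γ i x < rr a γ j x} := by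
    ext x; simp [arg]
  rw [this]
  refine (MeasurableSet.iInter fun i => measurableSet_le (rr_continuous i).measurable
    (rr_continuous j).measurable).inter ?_
  refine MeasurableSet.iInter fun i => MeasurableSet.iInter fun _ => ?_
  exact measurableSet_lt (rr_continuous i).measurable (rr_continuous j).measurable

theorem measurableSet_CC (j : Fin m) : MeasurableSet (CC a γ j) :=
  isClosed_QQ.measurableSet.inter (measurableSet_arg j)

theorem exists_arg (hm : 0 < m) (x : Fin 2 → ℝ) : ∃ j, x ∈ arg a γ j := by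
  classical
  have : Nonempty (Fin m) := ⟨⟨0, hm⟩⟩
  obtain ⟨j0, hj0⟩ := Finite.exists_max (fun j => rr a γ j x)
  set S : Finset (Fin m) := Finset.univ.filter fun j => ∀ i, rr a γ i x ≤ rr a γ j x with hS
  have hSn : S.Nonempty := ⟨j0, by simpa [hS] using hj0⟩
  refine ⟨S.min' hSn, ?_, ?_⟩
  · have := S.min'_mem hSn
    simpa [hS] using this
  · intro i hi
    by_contra hcon
    push Not at hcon
    have hmem : ∀ k, k ∈ S ↔ ∀ i, rr a γ i x ≤ rr a γ k x := by
      intro k; simp [hS]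
    have h1 := (hmem _).1 (S.min'_mem hSn)
    have h2 : i ∈ S := (hmem i).2 fun k => (h1 k).trans hcon
    exact absurd (S.min'_le i h2) (not_le.2 hi)

theorem arg_disjoint {i j : Fin m} (hij : i ≠ j) : Disjoint (arg a γ i) (arg a γ j) := by
  rw [Set.disjoint_left]
  rintro x ⟨h1, h2⟩ ⟨h3, h4⟩
  rcases lt_or_gt_of_ne hij with h | h
  · exact absurd (h1 j) (not_le.2 (h4 i h))
  · exact absurd (h3 i) (not_le.2 (h2 j h))

theorem volume_QQ (hm : 0 < m) : volume (QQ a γ) = ∑ j, volume (CC a γ j) := by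
  have h1 : QQ a γ = ⋃ j, CC a γ j := by
    ext x
    simp only [CC, mem_iUnion, mem_inter_iff]
    constructor
    · intro hx
      obtain ⟨j, hj⟩ := exists_arg (a := a) (γ := γ) hm x
      exact ⟨j, hx, hj⟩
    · rintro ⟨j, hx, _⟩; exact hx
  conv_lhs => rw [h1]
  rw [measure_iUnion]
  · exact tsum_fintype _
  · intro i j hij
    exact (arg_disjoint hij).mono inter_subset_right inter_subset_right
  · exact measurableSet_CC

theorem volume_scaled (hm : 0 < m) (hγ : ∀ j, 0 < γ j) {c : Fin m → ℝ} (hc : ∀ j, 0 < c j) :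
    volume {x | ∀ j, rr a γ j x ≤ c j} ≤ ∑ j, ENNReal.ofReal (c j ^ 2) * volume (CC a γ j) := by
  have h1 : {x | ∀ j, rr a γ j x ≤ c j} ⊆ ⋃ j, c j • CC a γ j := by
    intro x hx
    obtain ⟨j, hj1, hj2⟩ := exists_arg (a := a) (γ := γ) hm x
    rw [mem_iUnion]
    refine ⟨j, (c j)⁻¹ • x, ?_, ?_⟩
    · have hcj := inv_nonneg.2 (hc j).le
      refine ⟨fun i => ?_, fun i => ?_, fun i hi => ?_⟩
      · rw [rr_smul hγ i hcj]
        have h2 : rr a γ i x ≤ c j := (hj1 i).trans (hx j)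
        rw [inv_mul_le_iff₀ (hc j), mul_one]
        exact h2
      · rw [rr_smul hγ i hcj, rr_smul hγ j hcj]
        exact mul_le_mul_of_nonneg_left (hj1 i) hcj
      · rw [rr_smul hγ i hcj, rr_smul hγ j hcj]
        exact mul_lt_mul_of_pos_left (hj2 i hi) (inv_pos.2 (hc j))
    · simp only [smul_smul]
      rw [mul_inv_cancel₀ (hc j).ne', one_smul]
  refine (measure_mono h1).trans ((measure_iUnion_fintype_le _ _).trans (le_of_eq ?_))
  refine Finset.sum_congr rfl fun j _ => ?_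
  rw [Measure.addHaar_smul]
  simp [abs_of_nonneg (sq_nonneg (c j))]

end poly

end Vale.Agent.H18
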