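import Mathlib
import Vale.Agent.H18.Planar2

open MeasureTheory Set Filter
open scoped ENNReal Pointwise Topology

namespace Vale.Agent.H18

/-- chord bound for the exponential -/
theorem exp_chord {Y y : ℝ} (hY : 0 < Y) (h1 : -Y ≤ y) (h2 : y ≤ Y) :
    Real.exp y ≤ Real.cosh Y + y / Y * Real.sinh Y := by
  have g1 : 0 ≤ (Y + y) / (2 * Y) := div_nonneg (by linarith) (by linarith)
  have g2 : 0 ≤ (Y - y) / (2 * Y) := div_nonneg (by linarith) (by linarith)
  have g3 : (Y + y) / (2 * Y) + (Y - y) / (2 * Y) = 1 := by field_simp; ring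
  have h := convexOn_exp.2 (mem_univ Y) (mem_univ (-Y)) g1 g2 g3
  simp only [smul_eq_mul] at h
  have e1 : (Y + y) / (2 * Y) * Y + (Y - y) / (2 * Y) * -Y = y := by field_simp; ring
  rw [e1] at h
  refine h.trans (le_of_eq ?_)
  rw [Real.cosh_eq, Real.sinh_eq]
  field_simp
  ring

/-- The planar logarithmic inequality from the pointwise quadratic inequalities. -/
theorem log_ineq {m : ℕ} {c t : Fin m → ℝ} {κ q : ℝ} (hκ : 0 < κ) (hq : 0 < q)
    (hc : ∀ j, 0 ≤ c j) (hcq : ∑ j, c j = q) (ht : ∀ j, 0 < t j)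
    (h : ∀ i, 0 < c i → t i ^ 2 * q + κ ≤ 2 * t i * ∑ j, t j * c j) :
    q / 2 * Real.log (κ / q) ≤ ∑ j, c j * Real.log (t j) := by
  classical
  set s := √(κ / q) with hs
  have hspos : 0 < s := Real.sqrt_pos.2 (div_pos hκ hq)
  have hs2 : s ^ 2 = κ / q := Real.sq_sqrt (div_pos hκ hq).le
  have hlogs : Real.log (κ / q) = 2 * Real.log s := by
    rw [← hs2, Real.log_pow]; norm_num
  set y : Fin m → ℝ := fun j => Real.log (t j / s) with hy
  have hty : ∀ j, t j = s * Real.exp (y j) := by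
    intro j
    rw [hy]; simp only
    rw [Real.exp_log (div_pos (ht j) hspos)]
    field_simp
  -- it suffices to show `0 ≤ ∑ c j * y j`
  suffices hsuff : 0 ≤ ∑ j, c j * y j by
    have e : ∑ j, c j * Real.log (t j) = q * Real.log s + ∑ j, c j * y j := by
      rw [← hcq, Finset.sum_mul, ← Finset.sum_add_distrib]
      refine Finset.sum_congr rfl fun j _ => ?_
      simp only [hy]
      rw [Real.log_div (ht j).ne' hspos.ne']
      ring
    rw [e, hlogs]
    linarith
  set E := ∑ j, c j * Real.exp (y j) with hE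
  have hM : ∑ j, t j * c j = s * E := by
    rw [hE, Finset.mul_sum]
    refine Finset.sum_congr rfl fun j _ => ?_
    rw [hty j]; ring
  -- cosh bound
  have hcosh : ∀ i, 0 < c i → q * Real.cosh (y i) ≤ E := by
    intro i hi
    have h1 := h i hi
    rw [hM, hty i] at h1
    have hκ' : κ = s ^ 2 * q := by rw [hs2]; field_simp
    rw [hκ'] at h1
    have hex := Real.exp_pos (y i)
    have h2 : (s ^ 2 * Real.exp (y i)) * (q * (Real.exp (y i) + Real.exp (-(y i)))) ≤
        (s ^ 2 * Real.exp (y i)) * (2 * E) := by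
      have e2 : Real.exp (y i) * Real.exp (-(y i)) = 1 := by
        rw [← Real.exp_add]; simp
      calc _ = (s * Real.exp (y i)) ^ 2 * q + s ^ 2 * q * (Real.exp (y i) * Real.exp (-(y i))) := by
            ring
        _ = (s * Real.exp (y i)) ^ 2 * q + s ^ 2 * q := by rw [e2, mul_one]
        _ ≤ 2 * (s * Real.exp (y i)) * (s * E) := h1
        _ = _ := by ring
    have h3 := le_of_mul_le_mul_left h2 (by positivity)
    rw [Real.cosh_eq]
    linarith
  -- maximum of |y i| over the support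
  set S : Finset (Fin m) := Finset.univ.filter fun j => 0 < c j with hS
  have hmem : ∀ k, k ∈ S ↔ 0 < c k := by intro k; simp [hS]
  by_cases hSn : S.Nonempty
  · obtain ⟨i0, hi0, hmax⟩ := S.exists_max_image (fun j => |y j|) hSn
    set Y := |y i0| with hY
    have hci0 := (hmem _).1 hi0
    rcases (abs_nonneg (y i0)).eq_or_lt with h0 | h0
    · -- all zero
      refine Finset.sum_nonneg fun j _ => ?_
      by_cases hj : 0 < c j
      · have := hmax j ((hmem j).2 hj)
        rw [hY, ← h0] at this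
        have : y j = 0 := abs_eq_zero.1 (le_antisymm this (abs_nonneg _))
        rw [this, mul_zero]
      · have : c j = 0 := le_antisymm (not_lt.1 hj) (hc j)
        rw [this, zero_mul]
    · have hYpos : 0 < Y := h0
      have hsinh : 0 < Real.sinh Y := Real.sinh_pos_iff.2 hYpos
      have hE1 : q * Real.cosh Y ≤ E := by
        have := hcosh i0 hci0
        rwa [← Real.cosh_abs] at this
      have hE2 : E ≤ q * Real.cosh Y + (∑ j, c j * y j) / Y * Real.sinh Y := by
        rw [hE, ← hcq, Finset.sum_mul, Finset.sum_div, Finset.sum_mul, ← Finset.sum_add_distrib]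
        refine Finset.sum_le_sum fun j _ => ?_
        by_cases hj : 0 < c j
        · have hb := abs_le.1 (hmax j ((hmem j).2 hj))
          have := exp_chord hYpos hb.1 hb.2
          calc c j * Real.exp (y j) ≤ c j * (Real.cosh Y + y j / Y * Real.sinh Y) :=
                mul_le_mul_of_nonneg_left this hj.le
            _ = _ := by ring
        · have : c j = 0 := le_antisymm (not_lt.1 hj) (hc j)
          rw [this]; simp
      have h5 : 0 ≤ (∑ j, c j * y j) / Y * Real.sinh Y := by linarith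
      have h6 : 0 ≤ (∑ j, c j * y j) / Y := by
        by_contra hcon
        push Not at hcon
        have := mul_neg_of_neg_of_pos hcon hsinh
        linarith
      by_contra hcon
      push Not at hcon
      have := div_neg_of_neg_of_pos hcon hYpos
      linarith
  · exfalso
    have hz : ∀ j, c j = 0 := by
      intro j
      by_contra hj
      exact hSn ⟨j, (hmem j).2 (lt_of_le_of_ne (hc j) (Ne.symm hj))⟩
    simp only [hz, Finset.sum_const_zero] at hcq
    linarith

/-- limiting argument -/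
theorem limit_aux {A B S : ℝ} (h : ∀ θ : ℝ, 0 < θ → θ < 1 → A ≤ B + θ * S) : A ≤ B := by
  by_contra hcon
  push Not at hcon
  have hS : 0 < |S| + 1 := by positivity
  set θ := min (1 / 2) ((A - B) / (2 * (|S| + 1))) with hθ
  have hθpos : 0 < θ := lt_min (by norm_num) (div_pos (by linarith) (by positivity))
  have hθ1 : θ < 1 := lt_of_le_of_lt (min_le_left _ _) (by norm_num)
  have h1 := h θ hθpos hθ1
  have h2 : θ * S ≤ (A - B) / 2 := by
    calc θ * S ≤ θ * (|S| + 1) := mul_le_mul_of_nonneg_left (by linarith [le_abs_self S]) hθpos.le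
      _ ≤ (A - B) / (2 * (|S| + 1)) * (|S| + 1) :=
          mul_le_mul_of_nonneg_right (min_le_right _ _) hS.le
      _ = (A - B) / 2 := by field_simp
  linarith

section main

variable {m : ℕ} {a : Fin m → Fin 2 → ℝ} {γ : Fin m → ℝ}

/-- The pointwise quadratic inequality. -/
theorem quad_ineq (hm : 0 < m) (ha : ∀ j, a j ≠ 0) (hγ : ∀ j, 0 < γ j)
    (hQ : IsCompact (QQ a γ)) {K : Set (Fin 2 → ℝ)} (hK : IsCompact K) (hKc : Convex ℝ K)
    (hKs : ∀ x ∈ K, -x ∈ K) (hKn : K.Nonempty) (hk : ∀ j, 0 < hsup K (a j)) (i : Fin m)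
    (hi : 0 < (volume (CC a γ i)).toReal) :
    (hsup K (a i) / γ i) ^ 2 * (∑ j, (volume (CC a γ j)).toReal) + (volume K).toReal ≤
      2 * (hsup K (a i) / γ i) * ∑ j, (hsup K (a j) / γ j) * (volume (CC a γ j)).toReal := by
  set k : Fin m → ℝ := fun j => hsup K (a j) with hkdef
  set t : Fin m → ℝ := fun j => k j / γ j with ht
  set c : Fin m → ℝ := fun j => (volume (CC a γ j)).toReal with hc
  have htpos : ∀ j, 0 < t j := fun j => div_pos (hk j) (hγ j)
  have hCfin : ∀ j, volume (CC a γ j) ≠ ⊤ := fun j =>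
    ((measure_mono inter_subset_left).trans_lt hQ.measure_lt_top).ne
  have hQs : ∀ x ∈ QQ a γ, -x ∈ QQ a γ := by
    intro x hx j
    have := hx j
    unfold rr at this ⊢
    rwa [dotProduct_neg, abs_neg]
  have hQc : Convex ℝ (QQ a γ) := by
    intro x hx z hz α β hα hβ hαβ j
    have h1 := hx j
    have h2 := hz j
    unfold rr at h1 h2 ⊢
    rw [div_le_one (hγ j)] at h1 h2 ⊢
    rw [dotProduct_add, dotProduct_smul, dotProduct_smul, smul_eq_mul, smul_eq_mul]
    calc |α * a j ⬝ᵥ x + β * a j ⬝ᵥ z| ≤ |α * a j ⬝ᵥ x| + |β * a j ⬝ᵥ z| := abs_add_le _ _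
      _ = α * |a j ⬝ᵥ x| + β * |a j ⬝ᵥ z| := by
          rw [abs_mul, abs_mul, abs_of_nonneg hα, abs_of_nonneg hβ]
      _ ≤ α * γ j + β * γ j := by gcongr
      _ = γ j := by rw [← add_mul, hαβ, one_mul]
  -- a point of Q with `a i ⬝ x = γ i`
  have hex : ∃ x ∈ QQ a γ, a i ⬝ᵥ x = γ i := by
    have hpos : 0 < volume (CC a γ i) := by
      rcases ENNReal.toReal_pos_iff.1 hi with ⟨h, _⟩
      exact h
    have hnull : volume {x : Fin 2 → ℝ | a i ⬝ᵥ x = 0} = 0 := by
      set f : (Fin 2 → ℝ) →ₗ[ℝ] ℝ :=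
        { toFun := fun x => a i ⬝ᵥ x
          map_add' := fun x y => by rw [dotProduct_add]
          map_smul' := fun r x => by rw [dotProduct_smul]; rfl } with hf
      have h1 : {x : Fin 2 → ℝ | a i ⬝ᵥ x = 0} = (LinearMap.ker f : Set (Fin 2 → ℝ)) := by
        ext x; simp [hf]
      rw [h1]
      refine Measure.addHaar_submodule _ _ ?_
      intro htop
      rw [LinearMap.ker_eq_top] at htop
      have h2 : f (a i) = 0 := by rw [htop]; rfl
      have h3 : a i ⬝ᵥ a i = 0 := h2
      exact ha i (dotProduct_self_eq_zero.1 h3)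
    have hne : ∃ x ∈ CC a γ i, a i ⬝ᵥ x ≠ 0 := by
      by_contra hcon
      push Not at hcon
      have : volume (CC a γ i) ≤ 0 := by
        rw [← hnull]; exact measure_mono fun x hx => hcon x hx
      exact absurd this (not_le.2 hpos)
    obtain ⟨x, ⟨hx1, hx2, hx3⟩, hx4⟩ := hne
    have hr : 0 < rr a γ i x := div_pos (abs_pos.2 hx4) (hγ i)
    have hz : (rr a γ i x)⁻¹ • x ∈ QQ a γ := by
      intro j
      rw [rr_smul hγ j (inv_nonneg.2 hr.le), inv_mul_le_iff₀ hr, mul_one]
      exact hx2 j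
    have hval : |a i ⬝ᵥ ((rr a γ i x)⁻¹ • x)| = γ i := by
      rw [dotProduct_smul, smul_eq_mul, abs_mul, abs_of_pos (inv_pos.2 hr)]
      have : |a i ⬝ᵥ x| = rr a γ i x * γ i := by
        unfold rr; rw [div_mul_cancel₀ _ (hγ i).ne']
      rw [this]; field_simp
    rcases abs_cases (a i ⬝ᵥ ((rr a γ i x)⁻¹ • x)) with ⟨h, _⟩ | ⟨h, _⟩
    · exact ⟨_, hz, by rw [← h, hval]⟩
    · refine ⟨_, hQs _ hz, ?_⟩
      rw [dotProduct_neg, ← h, hval]
  obtain ⟨q0, hq0, hq0v⟩ := hex
  obtain ⟨k0, hk0, hk0v⟩ := exists_hsup hK hKn (a i)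
  -- the inequality for each θ
  have step : ∀ θ : ℝ, 0 < θ → θ < 1 →
      t i ^ 2 * (∑ j, c j) + (volume K).toReal ≤ 2 * t i * (∑ j, t j * c j) +
        θ * (t i ^ 2 * (∑ j, c j) - 2 * t i * (∑ j, t j * c j) + ∑ j, t j ^ 2 * c j) := by
    intro θ hθ0 hθ1
    have hbm := sec_bm (X := t i • QQ a γ) (Y := K) (hQ.smul _) hK (hQc.smul _) hKc
      (by
        rintro _ ⟨x, hx, rfl⟩
        exact ⟨-x, hQs x hx, by simp⟩) hKs (ha i) (c := k i)
      (by
        rintro _ ⟨x, hx, rfl⟩
        simp only [dotProduct_smul, smul_eq_mul]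
        have := hx i
        unfold rr at this
        rw [div_le_one (hγ i)] at this
        have h3 : a i ⬝ᵥ x ≤ γ i := (le_abs_self _).trans this
        calc t i * a i ⬝ᵥ x ≤ t i * γ i := mul_le_mul_of_nonneg_left h3 (htpos i).le
          _ = k i := by rw [ht]; simp only; rw [div_mul_cancel₀ _ (hγ i).ne'])
      (fun x hx => le_hsup hK (a i) hx)
      ⟨t i • q0, smul_mem_smul_set hq0, by
        rw [dotProduct_smul, hq0v, smul_eq_mul, ht]; simp only
        rw [div_mul_cancel₀ _ (hγ i).ne']⟩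
      ⟨k0, hk0, hk0v⟩ hθ0.le hθ1.le
    have hsub : (1 - θ) • (t i • QQ a γ) + θ • K ⊆
        {x | ∀ j, rr a γ j x ≤ (1 - θ) * t i + θ * t j} := by
      rintro _ ⟨_, ⟨_, ⟨x, hx, rfl⟩, rfl⟩, _, ⟨z, hz, rfl⟩, rfl⟩ j
      have h1 := hx j
      have h2 := le_hsup hK (a j) hz
      have h3 := le_hsup hK (a j) (hKs z hz)
      rw [dotProduct_neg] at h3
      have h4 : |a j ⬝ᵥ z| ≤ k j := abs_le.2 ⟨by simp only [hkdef]; linarith, h2⟩
      unfold rr at h1 ⊢
      rw [div_le_one (hγ j)] at h1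
      simp only [dotProduct_add, dotProduct_smul, smul_eq_mul]
      rw [div_le_iff₀ (hγ j)]
      have e1 : |(1 - θ) * (t i * a j ⬝ᵥ x) + θ * a j ⬝ᵥ z| ≤
          (1 - θ) * (t i * |a j ⬝ᵥ x|) + θ * |a j ⬝ᵥ z| := by
        refine (abs_add_le _ _).trans (le_of_eq ?_)
        rw [abs_mul, abs_mul, abs_mul, abs_of_pos (by linarith : (0 : ℝ) < 1 - θ),
          abs_of_pos (htpos i), abs_of_pos hθ0]
      refine e1.trans ?_
      have e2 : t j * γ j = k j := by rw [ht]; simp only; rw [div_mul_cancel₀ _ (hγ j).ne']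
      have h5 : 0 ≤ 1 - θ := by linarith
      calc (1 - θ) * (t i * |a j ⬝ᵥ x|) + θ * |a j ⬝ᵥ z|
          ≤ (1 - θ) * (t i * γ j) + θ * k j := by
            have := htpos i
            gcongr
        _ = ((1 - θ) * t i + θ * t j) * γ j := by rw [← e2]; ring
    have hcpos : ∀ j, 0 < (1 - θ) * t i + θ * t j := fun j =>
      add_pos (mul_pos (by linarith) (htpos i)) (mul_pos hθ0 (htpos j))
    have hfin := hbm.trans ((measure_mono hsub).trans (volume_scaled hm hγ hcpos))
    have hvQ : volume (t i • QQ a γ) = ENNReal.ofReal (t i ^ 2) * volume (QQ a γ) := by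
      rw [Measure.addHaar_smul]; simp [abs_of_nonneg (sq_nonneg (t i))]
    rw [hvQ, volume_QQ hm] at hfin
    have hRfin : ∑ j, ENNReal.ofReal (((1 - θ) * t i + θ * t j) ^ 2) * volume (CC a γ j) ≠ ⊤ := by
      refine ENNReal.sum_ne_top.2 fun j _ => ENNReal.mul_ne_top (by simp) (hCfin j)
    have hr := ENNReal.toReal_mono hRfin hfin
    rw [ENNReal.toReal_add (by
        refine ENNReal.mul_ne_top (by simp) (ENNReal.mul_ne_top (by simp) ?_)
        exact ENNReal.sum_ne_top.2 fun j _ => hCfin j)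
      (ENNReal.mul_ne_top (by simp) hK.measure_lt_top.ne),
      ENNReal.toReal_mul, ENNReal.toReal_mul, ENNReal.toReal_mul,
      ENNReal.toReal_sum (fun j _ => hCfin j),
      ENNReal.toReal_sum (fun j _ => ENNReal.mul_ne_top (by simp) (hCfin j)),
      ENNReal.toReal_ofReal (by linarith), ENNReal.toReal_ofReal (by positivity),
      ENNReal.toReal_ofReal hθ0.le] at hr
    have e3 : ∑ j, (ENNReal.ofReal (((1 - θ) * t i + θ * t j) ^ 2) * volume (CC a γ j)).toReal =
        (1 - θ) ^ 2 * t i ^ 2 * (∑ j, c j) + 2 * θ * (1 - θ) * t i * (∑ j, t j * c j) +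
          θ ^ 2 * ∑ j, t j ^ 2 * c j := by
      rw [Finset.mul_sum, Finset.mul_sum, Finset.mul_sum, ← Finset.sum_add_distrib,
        ← Finset.sum_add_distrib]
      refine Finset.sum_congr rfl fun j _ => ?_
      rw [ENNReal.toReal_mul, ENNReal.toReal_ofReal (by positivity)]
      simp only [hc]
      ring
    rw [e3] at hr
    have hr2 : θ * (t i ^ 2 * (∑ j, c j) + (volume K).toReal) ≤ θ * (2 * t i * (∑ j, t j * c j) +
        θ * (t i ^ 2 * (∑ j, c j) - 2 * t i * (∑ j, t j * c j) + ∑ j, t j ^ 2 * c j)) := by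
      have : ∑ j, (volume (CC a γ j)).toReal = ∑ j, c j := rfl
      rw [this] at hr
      nlinarith
    exact le_of_mul_le_mul_left hr2 hθ0
  exact limit_aux step

end main

end Vale.Agent.H18
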