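import Mathlib
import Vale.Agent.H18.Planar3

open MeasureTheory Set Filter
open scoped ENNReal Pointwise Topology

namespace Vale.Agent.H18

/-- a nonzero functional has positive support value on a symmetric set of positive measure -/
theorem hsup_pos {n : ℕ} {K : Set (Fin n → ℝ)} (hK : IsCompact K) (hs : ∀ x ∈ K, -x ∈ K)
    (hv : volume K ≠ 0) {a : Fin n → ℝ} (ha : a ≠ 0) : 0 < hsup K a := by
  by_contra hcon
  push Not at hcon
  apply hv
  set f : (Fin n → ℝ) →ₗ[ℝ] ℝ :=
    { toFun := fun x => a ⬝ᵥ x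
      map_add' := fun x y => by rw [dotProduct_add]
      map_smul' := fun r x => by rw [dotProduct_smul]; rfl } with hf
  have h1 : K ⊆ (LinearMap.ker f : Set (Fin n → ℝ)) := by
    intro x hx
    have e1 := le_hsup hK a hx
    have e2 := le_hsup hK a (hs x hx)
    rw [dotProduct_neg] at e2
    have : a ⬝ᵥ x = 0 := by linarith
    simpa [hf] using this
  refine measure_mono_null h1 (Measure.addHaar_submodule _ _ ?_)
  intro htop
  rw [LinearMap.ker_eq_top] at htop
  have h2 : f a = 0 := by rw [htop]; rfl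
  have h3 : a ⬝ᵥ a = 0 := h2
  exact ha (dotProduct_self_eq_zero.1 h3)

theorem continuous_hsup {n : ℕ} {K : Set (Fin n → ℝ)} (hK : IsCompact K) :
    Continuous (hsup K) := by
  have : Continuous fun a : Fin n → ℝ => sSup ((fun x => a ⬝ᵥ x) '' K) := by
    refine hK.continuous_sSup (f := fun a x => a ⬝ᵥ x) ?_
    simp only [Function.HasUncurry.uncurry, id]
    unfold dotProduct
    fun_prop
  exact this

/-- Log-Brunn-Minkowski in the plane with finitely many directions. -/
theorem planar_finite {m : ℕ} (hm : 0 < m) {a : Fin m → Fin 2 → ℝ} (ha : ∀ j, a j ≠ 0)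
    {K L : Set (Fin 2 → ℝ)} (hK : IsCompact K) (hL : IsCompact L) (hKc : Convex ℝ K)
    (hLc : Convex ℝ L) (hKs : ∀ x ∈ K, -x ∈ K) (hLs : ∀ x ∈ L, -x ∈ L)
    (hKv : volume K ≠ 0) (hLv : volume L ≠ 0) {t : ℝ} (ht0 : 0 < t) (ht1 : t < 1)
    (hQ : IsCompact (QQ a fun j => hsup K (a j) ^ (1 - t) * hsup L (a j) ^ t)) :
    volume K ^ (1 - t) * volume L ^ t ≤
      volume (QQ a fun j => hsup K (a j) ^ (1 - t) * hsup L (a j) ^ t) := by
  have h1t : 0 < 1 - t := by linarith
  have hkpos : ∀ j, 0 < hsup K (a j) := fun j => hsup_pos hK hKs hKv (ha j)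
  have hlpos : ∀ j, 0 < hsup L (a j) := fun j => hsup_pos hL hLs hLv (ha j)
  set γ : Fin m → ℝ := fun j => hsup K (a j) ^ (1 - t) * hsup L (a j) ^ t with hγdef
  have hγ : ∀ j, 0 < γ j := fun j =>
    mul_pos (Real.rpow_pos_of_pos (hkpos j) _) (Real.rpow_pos_of_pos (hlpos j) _)
  have hKn : K.Nonempty := by
    rw [Set.nonempty_iff_ne_empty]; rintro rfl; simp at hKv
  have hLn : L.Nonempty := by
    rw [Set.nonempty_iff_ne_empty]; rintro rfl; simp at hLv
  have hKfin := hK.measure_lt_top (μ := volume)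
  have hLfin := hL.measure_lt_top (μ := volume)
  have hQfin := hQ.measure_lt_top (μ := volume)
  have hκ : 0 < (volume K).toReal := ENNReal.toReal_pos hKv hKfin.ne
  have hlam : 0 < (volume L).toReal := ENNReal.toReal_pos hLv hLfin.ne
  have hCfin : ∀ j, volume (CC a γ j) ≠ ⊤ := fun j =>
    ((measure_mono inter_subset_left).trans_lt hQfin).ne
  -- Q has positive measure
  have hQpos : 0 < (volume (QQ a γ)).toReal := by
    refine ENNReal.toReal_pos ?_ hQfin.ne
    have hopen : IsOpen {x : Fin 2 → ℝ | ∀ j, rr a γ j x < 1} := by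
      have : {x : Fin 2 → ℝ | ∀ j, rr a γ j x < 1} = ⋂ j, {x | rr a γ j x < 1} := by
        ext x; simp
      rw [this]
      exact isOpen_iInter_of_finite fun j => isOpen_lt (rr_continuous j) continuous_const
    have hne : {x : Fin 2 → ℝ | ∀ j, rr a γ j x < 1}.Nonempty := ⟨0, fun j => by simp [rr]⟩
    have h1 := hopen.measure_pos volume hne
    exact (h1.trans_le (measure_mono fun x hx j => (hx j).le)).ne'
  set c : Fin m → ℝ := fun j => (volume (CC a γ j)).toReal with hc
  have hcq : ∑ j, c j = (volume (QQ a γ)).toReal := by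
    rw [volume_QQ hm, ENNReal.toReal_sum fun j _ => hCfin j]
  have hcnn : ∀ j, 0 ≤ c j := fun j => ENNReal.toReal_nonneg
  set q := (volume (QQ a γ)).toReal with hq
  have iK := log_ineq (c := c) (t := fun j => hsup K (a j) / γ j) hκ hQpos hcnn hcq
    (fun j => div_pos (hkpos j) (hγ j))
    (fun i hi => by
      have := quad_ineq hm ha hγ hQ hK hKc hKs hKn hkpos i hi
      rw [← hcq]
      exact this)
  have iL := log_ineq (c := c) (t := fun j => hsup L (a j) / γ j) hlam hQpos hcnn hcq
    (fun j => div_pos (hlpos j) (hγ j))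
    (fun i hi => by
      have := quad_ineq hm ha hγ hQ hL hLc hLs hLn hlpos i hi
      rw [← hcq]
      exact this)
  have comb : (1 - t) * (∑ j, c j * Real.log (hsup K (a j) / γ j)) +
      t * (∑ j, c j * Real.log (hsup L (a j) / γ j)) = 0 := by
    rw [Finset.mul_sum, Finset.mul_sum, ← Finset.sum_add_distrib]
    refine Finset.sum_eq_zero fun j _ => ?_
    rw [Real.log_div (hkpos j).ne' (hγ j).ne', Real.log_div (hlpos j).ne' (hγ j).ne']
    have e : Real.log (γ j) = (1 - t) * Real.log (hsup K (a j)) + t * Real.log (hsup L (a j)) := by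
      rw [hγdef]; simp only
      rw [Real.log_mul (Real.rpow_pos_of_pos (hkpos j) _).ne'
        (Real.rpow_pos_of_pos (hlpos j) _).ne', Real.log_rpow (hkpos j), Real.log_rpow (hlpos j)]
    rw [e]; ring
  rw [Real.log_div hκ.ne' hQpos.ne'] at iK
  rw [Real.log_div hlam.ne' hQpos.ne'] at iL
  have fin : (1 - t) * Real.log (volume K).toReal + t * Real.log (volume L).toReal ≤
      Real.log q := by
    have j1 := mul_le_mul_of_nonneg_left iK h1t.le
    have j2 := mul_le_mul_of_nonneg_left iL ht0.le
    have j3 : q / 2 * ((1 - t) * Real.log (volume K).toReal + t * Real.log (volume L).toReal -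
        Real.log q) ≤ 0 := by
      calc _ = (1 - t) * (q / 2 * (Real.log (volume K).toReal - Real.log q)) +
          t * (q / 2 * (Real.log (volume L).toReal - Real.log q)) := by ring
        _ ≤ _ := add_le_add j1 j2
        _ = 0 := comb
    by_contra hcon
    push Not at hcon
    have : 0 < q / 2 * ((1 - t) * Real.log (volume K).toReal +
        t * Real.log (volume L).toReal - Real.log q) := by
      apply mul_pos (by linarith); linarith
    linarith
  have real : (volume K).toReal ^ (1 - t) * (volume L).toReal ^ t ≤ q := by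
    rw [← Real.log_le_log_iff (by positivity) hQpos, Real.log_mul (by positivity) (by positivity),
      Real.log_rpow hκ, Real.log_rpow hlam]
    exact fin
  rw [← ENNReal.ofReal_toReal hKfin.ne, ← ENNReal.ofReal_toReal hLfin.ne,
    ← ENNReal.ofReal_toReal hQfin.ne, ENNReal.ofReal_rpow_of_nonneg hκ.le h1t.le,
    ENNReal.ofReal_rpow_of_nonneg hlam.le ht0.le, ← ENNReal.ofReal_mul (by positivity)]
  exact ENNReal.ofReal_le_ofReal real

/-- Planar log-Brunn-Minkowski inequality. -/
theorem planar {K L : Set (Fin 2 → ℝ)} (hK : IsCompact K) (hL : IsCompact L) (hKc : Convex ℝ K)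
    (hLc : Convex ℝ L) (hKs : ∀ x ∈ K, -x ∈ K) (hLs : ∀ x ∈ L, -x ∈ L)
    {t : ℝ} (ht0 : 0 < t) (ht1 : t < 1) :
    volume K ^ (1 - t) * volume L ^ t ≤ volume (Wf K L t) := by
  have h1t : 0 < 1 - t := by linarith
  by_cases hKv : volume K = 0
  · rw [hKv, ENNReal.zero_rpow_of_pos h1t, zero_mul]; exact zero_le
  by_cases hLv : volume L = 0
  · rw [hLv, ENNReal.zero_rpow_of_pos ht0, mul_zero]; exact zero_le
  set g : (Fin 2 → ℝ) → ℝ := fun a => hsup K a ^ (1 - t) * hsup L a ^ t with hg
  have gcont : Continuous g :=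
    ((continuous_hsup hK).rpow_const fun _ => Or.inr h1t.le).mul
      ((continuous_hsup hL).rpow_const fun _ => Or.inr ht0.le)
  have gpos : ∀ a, a ≠ 0 → 0 < g a := fun a ha =>
    mul_pos (Real.rpow_pos_of_pos (hsup_pos hK hKs hKv ha) _)
      (Real.rpow_pos_of_pos (hsup_pos hL hLs hLv ha) _)
  have hne : Nonempty {a : Fin 2 → ℝ // a ≠ 0} := ⟨⟨fun _ => 1, fun h => by
    have := congrFun h 0; simp at this⟩⟩
  set D : ℕ → {a : Fin 2 → ℝ // a ≠ 0} := TopologicalSpace.denseSeq _ with hD
  have hDdense : DenseRange D := TopologicalSpace.denseRange_denseSeq _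
  set b : ℕ → Fin 2 → ℝ := fun n => match n with
    | 0 => Pi.single 0 1
    | 1 => Pi.single 1 1
    | (k + 2) => (D k).1 with hb
  have hbne : ∀ n, b n ≠ 0 := by
    intro n
    match n with
    | 0 => intro h; have := congrFun h 0; simp [hb] at this
    | 1 => intro h; have := congrFun h 1; simp [hb] at this
    | (k + 2) => exact (D k).2
  set A : (n : ℕ) → Fin (n + 2) → Fin 2 → ℝ := fun n j => b j with hA
  set Q : ℕ → Set (Fin 2 → ℝ) := fun n => QQ (A n) fun j => g (A n j) with hQ
  have memQ : ∀ n x, x ∈ Q n ↔ ∀ k < n + 2, |b k ⬝ᵥ x| ≤ g (b k) := by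
    intro n x
    simp only [hQ, QQ, rr, hA]
    constructor
    · intro h k hk
      have := h ⟨k, hk⟩
      rwa [div_le_one (gpos _ (hbne k))] at this
    · intro h j
      rw [div_le_one (gpos _ (hbne j))]
      exact h j j.2
  have hQc : ∀ n, IsCompact (Q n) := by
    intro n
    have hsub : Q n ⊆ Icc (fun j => - g (Pi.single j 1)) (fun j => g (Pi.single j 1)) := by
      intro x hx
      rw [memQ] at hx
      have h0 := hx 0 (by omega)
      have h1 := hx 1 (by omega)
      simp only [hb, single_dotProduct, one_mul] at h0 h1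
      rw [abs_le] at h0 h1
      refine ⟨fun j => ?_, fun j => ?_⟩
      · fin_cases j
        · exact h0.1
        · exact h1.1
      · fin_cases j
        · exact h0.2
        · exact h1.2
    exact isCompact_Icc.of_isClosed_subset isClosed_QQ hsub
  have hfin : ∀ n, volume K ^ (1 - t) * volume L ^ t ≤ volume (Q n) := by
    intro n
    exact planar_finite (by omega) (fun j => hbne j) hK hL hKc hLc hKs hLs hKv hLv ht0 ht1 (hQc n)
  have hanti : Antitone Q := by
    intro n n' hnn x hx
    rw [memQ] at hx ⊢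
    intro k hk
    exact hx k (by omega)
  have hinter : ⋂ n, Q n ⊆ Wf K L t := by
    intro x hx a
    rw [mem_iInter] at hx
    by_cases ha : a = 0
    · rw [ha, zero_dotProduct]
      exact mul_nonneg (Real.rpow_nonneg (hsup_nonneg hK hKs 0) _)
        (Real.rpow_nonneg (hsup_nonneg hL hLs 0) _)
    · have hcl : IsClosed {a : {a : Fin 2 → ℝ // a ≠ 0} | a.1 ⬝ᵥ x ≤ g a.1} :=
        isClosed_le (by
          have h0 : Continuous fun a : Fin 2 → ℝ => a ⬝ᵥ x := by fun_prop
          exact h0.comp continuous_subtype_val) (gcont.comp continuous_subtype_val)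
      have hall := hDdense.induction_on (p := fun a => a.1 ⬝ᵥ x ≤ g a.1) ⟨a, ha⟩ hcl (by
        intro k
        have := (memQ k x).1 (hx k) (k + 2)
        have h2 := (memQ (k + 1) x).1 (hx (k + 1)) (k + 2) (by omega)
        simp only [hb] at h2
        exact (le_abs_self _).trans h2)
      exact hall
  have htend := tendsto_measure_iInter_atTop (μ := volume) (s := Q)
    (fun n => (hQc n).measurableSet.nullMeasurableSet) hanti
    ⟨0, (hQc 0).measure_lt_top.ne⟩
  refine (ge_of_tendsto' htend hfin).trans (measure_mono hinter)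

theorem PLB_two (S : Finset (Fin 2)) {t : ℝ} (ht0 : 0 < t) (ht1 : t < 1) : PLB 2 S t :=
  fun _ _ hK hL hKc hLc hKs hLs _ _ => planar hK hL hKc hLc hKs hLs ht0 ht1

theorem PLB_all : ∀ (n : ℕ), 2 ≤ n → ∀ (S : Finset (Fin n)), n ≤ S.card + 2 → ∀ {t : ℝ}, 0 < t →
    t < 1 → PLB n S t := by
  intro n hn
  induction n, hn using Nat.le_induction with
  | base => intro S _ t ht0 ht1; exact PLB_two S ht0 ht1
  | succ n hn ih =>
    intro S hS t ht0 ht1
    have hcard : 0 < S.card := by omega
    obtain ⟨i, hi⟩ := Finset.card_pos.1 hcard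
    refine PLB_step S i hi ht0 ht1 (ih _ ?_ ht0 ht1)
    have h1 : S ⊆ insert i ((Finset.univ.filter fun j => i.succAbove j ∈ S).image i.succAbove) := by
      intro k hk
      rw [Finset.mem_insert]
      by_cases hki : k = i
      · exact Or.inl hki
      · right
        obtain ⟨j, hj⟩ := Fin.exists_succAbove_eq hki
        rw [Finset.mem_image]
        exact ⟨j, by simp [hj, hk], hj⟩
    have h2 := (Finset.card_le_card h1).trans (Finset.card_insert_le _ _)
    have h3 := Finset.card_image_le (s := Finset.univ.filter fun j => i.succAbove j ∈ S)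
      (f := i.succAbove)
    omega

end Vale.Agent.H18
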