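import Mathlib
import Vale.Agent.H18.Planar4

open MeasureTheory Set Filter
open scoped ENNReal Pointwise Topology

namespace Vale.Agent.H18

/-- Transfer of `PLB_all` to Euclidean space, for reflections along a basis. -/
theorem logbm_basis (n : ℕ) (hn : 2 ≤ n) (K L : Set (EuclideanSpace ℝ (Fin n)))
    (hK : IsCompact K) (hL : IsCompact L) (hKc : Convex ℝ K) (hLc : Convex ℝ L)
    (hKs : ∀ x ∈ K, -x ∈ K) (hLs : ∀ x ∈ L, -x ∈ L)
    (b : Module.Basis (Fin n) ℝ (EuclideanSpace ℝ (Fin n))) (S : Finset (Fin n))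
    (hS : n ≤ S.card + 2)
    (hKS : ∀ i ∈ S, ∀ x ∈ K, x - (2 * b.repr x i) • b i ∈ K)
    (hLS : ∀ i ∈ S, ∀ x ∈ L, x - (2 * b.repr x i) • b i ∈ L)
    (t : ℝ) (ht0 : 0 < t) (ht1 : t < 1) :
    volume K ^ (1 - t) * volume L ^ t ≤ volume {x : EuclideanSpace ℝ (Fin n) |
      ∀ u, ‖u‖ = 1 → inner ℝ x u ≤ (sSup ((fun x => inner ℝ x u) '' K)) ^ (1 - t) *
        (sSup ((fun x => inner ℝ x u) '' L)) ^ t} := by
  have h1t : 0 < 1 - t := by linarith
  set T : EuclideanSpace ℝ (Fin n) ≃ₗ[ℝ] (Fin n → ℝ) := b.equivFun with hT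
  have Tcont : Continuous T := T.toLinearMap.continuous_of_finiteDimensional
  have Tflip : ∀ x i, T (x - (2 * b.repr x i) • b i) = Function.update (T x) i (-(T x) i) := by
    intro x i
    ext j
    simp only [hT, map_sub, map_smul, Pi.sub_apply, Pi.smul_apply, smul_eq_mul,
      Module.Basis.equivFun_apply, Module.Basis.repr_self]
    by_cases h : j = i
    · subst h; simp; ring
    · rw [Function.update_of_ne h, Finsupp.single_apply, if_neg (Ne.symm h)]; simp
  have main := PLB_all n hn S hS ht0 ht1 (T '' K) (T '' L) (hK.image Tcont) (hL.image Tcont)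
    (hKc.linear_image T.toLinearMap) (hLc.linear_image T.toLinearMap)
    (by rintro _ ⟨x, hx, rfl⟩; exact ⟨-x, hKs x hx, by simp⟩)
    (by rintro _ ⟨x, hx, rfl⟩; exact ⟨-x, hLs x hx, by simp⟩)
    (by rintro i hi _ ⟨x, hx, rfl⟩; exact ⟨_, hKS i hi x hx, Tflip x i⟩)
    (by rintro i hi _ ⟨x, hx, rfl⟩; exact ⟨_, hLS i hi x hx, Tflip x i⟩)
  -- the Haar constant
  have hHaar : (volume.map T : Measure (Fin n → ℝ)).IsAddHaarMeasure :=
    T.toContinuousLinearEquiv.isAddHaarMeasure_map volume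
  obtain ⟨c, hc0, hctop, hc⟩ : ∃ c : ℝ≥0∞, c ≠ 0 ∧ c ≠ ⊤ ∧
      (volume.map T : Measure (Fin n → ℝ)) = c • volume := by
    refine ⟨(Measure.addHaarScalarFactor (volume.map T : Measure (Fin n → ℝ)) volume : ℝ≥0∞),
      ?_, ENNReal.coe_ne_top, ?_⟩
    · rw [ENNReal.coe_ne_zero]
      exact (Measure.addHaarScalarFactor_pos_of_isAddHaarMeasure _ _).ne'
    · exact Measure.isAddLeftInvariant_eq_smul _ _
  have vol_pre : ∀ B : Set (Fin n → ℝ), MeasurableSet B → volume (T ⁻¹' B) = c * volume B := by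
    intro B hB
    have h1 : (volume.map T : Measure (Fin n → ℝ)) B = volume (T ⁻¹' B) :=
      Measure.map_apply Tcont.measurable hB
    rw [← h1, hc, Measure.smul_apply, smul_eq_mul]
  have volK : volume K = c * volume (T '' K) := by
    rw [← vol_pre _ (hK.image Tcont).measurableSet, Set.preimage_image_eq _ T.injective]
  have volL : volume L = c * volume (T '' L) := by
    rw [← vol_pre _ (hL.image Tcont).measurableSet, Set.preimage_image_eq _ T.injective]
  have hsub : T ⁻¹' (Wf (T '' K) (T '' L) t) ⊆ {x : EuclideanSpace ℝ (Fin n) |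
      ∀ u, ‖u‖ = 1 → inner ℝ x u ≤ (sSup ((fun x => inner ℝ x u) '' K)) ^ (1 - t) *
        (sSup ((fun x => inner ℝ x u) '' L)) ^ t} := by
    intro x hx u _
    have hdot : ∀ z, (fun j => inner ℝ (b j) u) ⬝ᵥ T z = inner ℝ z u := by
      intro z
      conv_rhs => rw [← b.sum_equivFun z]
      rw [sum_inner]
      simp only [dotProduct, inner_smul_left, conj_trivial, hT]
      refine Finset.sum_congr rfl fun j _ => ?_
      ring
    have h1 := hx (fun j => inner ℝ (b j) u)
    have e : ∀ A : Set (EuclideanSpace ℝ (Fin n)), hsup (T '' A) (fun j => inner ℝ (b j) u) =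
        sSup ((fun x => inner ℝ x u) '' A) := by
      intro A
      unfold hsup
      rw [Set.image_image]
      simp only [hdot]
    rw [hdot, e, e] at h1
    exact h1
  calc volume K ^ (1 - t) * volume L ^ t
      = c * (volume (T '' K) ^ (1 - t) * volume (T '' L) ^ t) := by
        rw [volK, volL, ENNReal.mul_rpow_of_nonneg _ _ h1t.le,
          ENNReal.mul_rpow_of_nonneg _ _ ht0.le]
        have : c ^ (1 - t) * c ^ t = c := by
          rw [← ENNReal.rpow_add _ _ hc0 hctop]; simp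
        calc _ = (c ^ (1 - t) * c ^ t) * (volume (T '' K) ^ (1 - t) * volume (T '' L) ^ t) := by
              ring
          _ = _ := by rw [this]
    _ ≤ c * volume (Wf (T '' K) (T '' L) t) := by gcongr
    _ = volume (T ⁻¹' (Wf (T '' K) (T '' L) t)) :=
        (vol_pre _ (isCompact_Wf _ _ _).measurableSet).symm
    _ ≤ _ := measure_mono hsub

end Vale.Agent.H18
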